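import Mathlib

/-!
Elementary vanishing lemmas for `Ext` in an abelian category, used for the
syzygy criterion in `Vale.Agent.H52.AR.Syz`.
-/

namespace Vale.Agent.H52.AR

open CategoryTheory Abelian

universe w v u

variable {C : Type u} [Category.{v} C] [Abelian C] [HasExt.{w} C]

/-- Contravariant dimension shifting: if the middle term is projective and
`Ext^(j+1)(X₃, Y)` vanishes then `Ext^j(X₁, Y)` vanishes (`j ≥ 1`). -/
theorem shift_left {S : ShortComplex C} (hS : S.ShortExact) [Projective S.X₂] (Y : C)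
    (j : ℕ) (hj : 1 ≤ j) (h : Subsingleton (Ext S.X₃ Y (1 + j))) :
    Subsingleton (Ext S.X₁ Y j) := by
  obtain ⟨j, rfl⟩ : ∃ j', j = j' + 1 := ⟨j - 1, by omega⟩
  refine subsingleton_of_forall_eq 0 (fun x₁ => ?_)
  have h0 : hS.extClass.comp x₁ rfl = 0 := Subsingleton.elim _ _
  obtain ⟨x₂, hx₂⟩ := Ext.contravariant_sequence_exact₁ hS Y x₁ rfl h0
  have : x₂ = 0 := Ext.eq_zero_of_projective x₂
  rw [← hx₂, this, Ext.comp_zero]

/-- Covariant dimension shifting. -/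
theorem shift_right {S : ShortComplex C} (hS : S.ShortExact) (X : C) (n₀ : ℕ)
    (h₃ : Subsingleton (Ext X S.X₃ n₀)) (h₂ : Subsingleton (Ext X S.X₂ (n₀ + 1))) :
    Subsingleton (Ext X S.X₁ (n₀ + 1)) := by
  refine subsingleton_of_forall_eq 0 (fun x₁ => ?_)
  have h0 : x₁.comp (Ext.mk₀ S.f) (add_zero (n₀ + 1)) = 0 := Subsingleton.elim _ _
  obtain ⟨x₃, hx₃⟩ := Ext.covariant_sequence_exact₁ X hS x₁ h0 rfl
  have : x₃ = 0 := Subsingleton.elim _ _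
  rw [← hx₃, this, Ext.zero_comp]

/-- `Ext(X, -)` vanishes on retracts. -/
theorem ext_retract (X : C) {N Q : C} (s : N ⟶ Q) (r : Q ⟶ N) (hsr : s ≫ r = 𝟙 N) (n : ℕ)
    (h : Subsingleton (Ext X Q n)) : Subsingleton (Ext X N n) := by
  refine subsingleton_of_forall_eq 0 (fun x => ?_)
  have h1 : x = (x.comp (Ext.mk₀ s) (add_zero n)).comp (Ext.mk₀ r) (add_zero n) := by
    rw [Ext.comp_assoc_of_third_deg_zero, Ext.mk₀_comp_mk₀, hsr, Ext.comp_mk₀_id]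
  have h2 : x.comp (Ext.mk₀ s) (add_zero n) = 0 := Subsingleton.elim _ _
  rw [h1, h2, Ext.zero_comp]

/-- `Ext(X, -)` vanishes on an object whose identity is a finite sum of maps factoring
through objects on which it vanishes. -/
theorem ext_of_sum (X : C) {Q : C} {ι : Type*} [Fintype ι] (A : ι → C)
    (p : ∀ i, Q ⟶ A i) (e : ∀ i, A i ⟶ Q) (hid : ∑ i, p i ≫ e i = 𝟙 Q) (n : ℕ)
    (h : ∀ i, Subsingleton (Ext X (A i) n)) : Subsingleton (Ext X Q n) := by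
  refine subsingleton_of_forall_eq 0 (fun x => ?_)
  have h1 : x = x.comp (Ext.mk₀ (∑ i, p i ≫ e i)) (add_zero n) := by
    rw [hid, Ext.comp_mk₀_id]
  rw [h1, Ext.mk₀_sum, Ext.comp_sum]
  refine Finset.sum_eq_zero (fun i _ => ?_)
  have h2 : x.comp (Ext.mk₀ (p i)) (add_zero n) = 0 := (h i).elim _ _
  rw [← Ext.mk₀_comp_mk₀, ← Ext.comp_assoc_of_third_deg_zero, h2, Ext.zero_comp]

/-- Binary form of `ext_of_sum`. -/
theorem ext_of_add (X : C) {Q A B : C} (p₁ : Q ⟶ A) (e₁ : A ⟶ Q) (p₂ : Q ⟶ B) (e₂ : B ⟶ Q)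
    (hid : p₁ ≫ e₁ + p₂ ≫ e₂ = 𝟙 Q) (n : ℕ)
    (hA : Subsingleton (Ext X A n)) (hB : Subsingleton (Ext X B n)) :
    Subsingleton (Ext X Q n) := by
  refine subsingleton_of_forall_eq 0 (fun x => ?_)
  have h1 : x = x.comp (Ext.mk₀ (p₁ ≫ e₁ + p₂ ≫ e₂)) (add_zero n) := by
    rw [hid, Ext.comp_mk₀_id]
  have h2 : x.comp (Ext.mk₀ p₁) (add_zero n) = 0 := hA.elim _ _
  have h3 : x.comp (Ext.mk₀ p₂) (add_zero n) = 0 := hB.elim _ _
  rw [h1, Ext.mk₀_add, Ext.comp_add, ← Ext.mk₀_comp_mk₀, ← Ext.mk₀_comp_mk₀,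
    ← Ext.comp_assoc_of_third_deg_zero, ← Ext.comp_assoc_of_third_deg_zero, h2, h3,
    Ext.zero_comp, Ext.zero_comp, add_zero]

/-- A short exact sequence with vanishing `Ext^1(X₃, X₁)` has a section. -/
theorem exists_section {S : ShortComplex C} (hS : S.ShortExact)
    (h : Subsingleton (Ext S.X₃ S.X₁ 1)) : ∃ s : S.X₃ ⟶ S.X₂, s ≫ S.g = 𝟙 S.X₃ := by
  have h0 : (Ext.mk₀ (𝟙 S.X₃)).comp hS.extClass (zero_add 1) = 0 := Subsingleton.elim _ _
  obtain ⟨x₂, hx₂⟩ := Ext.covariant_sequence_exact₃ S.X₃ hS (Ext.mk₀ (𝟙 S.X₃)) (zero_add 1) h0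
  obtain ⟨s, rfl⟩ := (Ext.mk₀_bijective S.X₃ S.X₂).2 x₂
  refine ⟨s, ?_⟩
  rw [Ext.mk₀_comp_mk₀] at hx₂
  exact (Ext.mk₀_bijective S.X₃ S.X₃).1 hx₂

end Vale.Agent.H52.AR
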