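import Vale.Agent.H52.AR.ExtLemmas

/-!
Syzygy criterion for the vanishing condition of Auslander and Reiten.
-/

namespace Vale.Agent.H52.AR

open CategoryTheory Abelian

universe u

variable {R : Type u} [Ring R]

/-- `Ext(M, -)` vanishes on finite powers when it vanishes on the base. -/
theorem ext_pi (M : ModuleCat.{u} R) (A : Type u) [AddCommGroup A] [Module R A] (k j : ℕ)
    (h : Subsingleton (Ext M (ModuleCat.of R A) j)) :
    Subsingleton (Ext M (ModuleCat.of R (Fin k → A)) j) := by
  refine ext_of_sum M (fun _ : Fin k => ModuleCat.of R A)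
    (fun i => ModuleCat.ofHom (LinearMap.proj i))
    (fun i => ModuleCat.ofHom (LinearMap.single R (fun _ : Fin k => A) i)) ?_ j (fun _ => h)
  apply ModuleCat.hom_ext
  apply LinearMap.ext
  intro x
  funext l
  simp [ModuleCat.hom_sum, Finset.sum_apply, Pi.single_apply]

/-- `Ext(M, -)` vanishes on binary products when it vanishes on the factors. -/
theorem ext_prod (M : ModuleCat.{u} R) (A B : Type u) [AddCommGroup A] [Module R A]
    [AddCommGroup B] [Module R B] (j : ℕ)
    (hA : Subsingleton (Ext M (ModuleCat.of R A) j))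
    (hB : Subsingleton (Ext M (ModuleCat.of R B) j)) :
    Subsingleton (Ext M (ModuleCat.of R (A × B)) j) := by
  refine ext_of_add M (ModuleCat.ofHom (LinearMap.fst R A B)) (ModuleCat.ofHom (LinearMap.inl R A B))
    (ModuleCat.ofHom (LinearMap.snd R A B)) (ModuleCat.ofHom (LinearMap.inr R A B)) ?_ j hA hB
  apply ModuleCat.hom_ext
  apply LinearMap.ext
  intro x
  simp [ModuleCat.hom_add]

/-- `Ext(M, -)` vanishes on finitely generated projective modules when it vanishes on the ring. -/
theorem ext_fg_projective (M : ModuleCat.{u} R) (P : Type u) [AddCommGroup P] [Module R P]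
    [Module.Projective R P] [Module.Finite R P] (j : ℕ)
    (h : Subsingleton (Ext M (ModuleCat.of R R) j)) :
    Subsingleton (Ext M (ModuleCat.of R P) j) := by
  obtain ⟨k, f, hf⟩ := Module.Finite.exists_fin' R P
  obtain ⟨s, hs⟩ := Module.projective_lifting_property f LinearMap.id hf
  refine ext_retract M (ModuleCat.ofHom s) (ModuleCat.ofHom f) ?_ j (ext_pi M R k j h)
  apply ModuleCat.hom_ext
  apply LinearMap.ext
  intro x
  simpa using congrArg (fun g => g x) hs

/-- The short complex of one syzygy step. -/
noncomputable def stepComplex {K Q X : Type u} [AddCommGroup K] [Module R K] [AddCommGroup Q]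
    [Module R Q] [AddCommGroup X] [Module R X] (f : K →ₗ[R] Q) (g : Q →ₗ[R] X)
    (hex : Function.Exact f g) : ShortComplex (ModuleCat.{u} R) :=
  ShortComplex.moduleCatMk f g (hex.linearMap_comp_eq_zero)

theorem stepComplex_shortExact {K Q X : Type u} [AddCommGroup K] [Module R K] [AddCommGroup Q]
    [Module R Q] [AddCommGroup X] [Module R X] (f : K →ₗ[R] Q) (g : Q →ₗ[R] X)
    (hex : Function.Exact f g) (hf : Function.Injective f) (hg : Function.Surjective g) :
    (stepComplex f g hex).ShortExact :=
  ModuleCat.shortComplex_shortExact _ hex hf hg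

/-- One syzygy step with vanishing `Ext^1`: the quotient is a retract of the middle term. -/
theorem retract_of_ext_one {K Q X : Type u} [AddCommGroup K] [Module R K] [AddCommGroup Q]
    [Module R Q] [AddCommGroup X] [Module R X] (f : K →ₗ[R] Q) (g : Q →ₗ[R] X)
    (hex : Function.Exact f g) (hf : Function.Injective f) (hg : Function.Surjective g)
    (h : Subsingleton (Ext (ModuleCat.of R X) (ModuleCat.of R K) 1))
    [Module.Projective R Q] [Module.Finite R Q] :
    Module.Projective R X ∧ Module.Finite R X := by
  obtain ⟨s, hs⟩ : ∃ s : ModuleCat.of R X ⟶ ModuleCat.of R Q,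
      s ≫ ModuleCat.ofHom g = 𝟙 (ModuleCat.of R X) :=
    exists_section (stepComplex_shortExact f g hex hf hg) h
  have hs' : g.comp s.hom = LinearMap.id := by
    have := congrArg ModuleCat.Hom.hom hs
    simpa using this
  exact ⟨Module.Projective.of_split s.hom g hs', Module.Finite.of_surjective g hg⟩

theorem mod_shift_right (M : ModuleCat.{u} R) {K Q X : Type u} [AddCommGroup K] [Module R K]
    [AddCommGroup Q] [Module R Q] [AddCommGroup X] [Module R X] (f : K →ₗ[R] Q) (g : Q →ₗ[R] X)
    (hex : Function.Exact f g) (hf : Function.Injective f) (hg : Function.Surjective g) (n₀ : ℕ)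
    (h₃ : Subsingleton (Ext M (ModuleCat.of R X) n₀))
    (h₂ : Subsingleton (Ext M (ModuleCat.of R Q) (n₀ + 1))) :
    Subsingleton (Ext M (ModuleCat.of R K) (n₀ + 1)) :=
  shift_right (stepComplex_shortExact f g hex hf hg) M n₀ h₃ h₂

theorem mod_shift_left {K Q X : Type u} [AddCommGroup K] [Module R K]
    [AddCommGroup Q] [Module R Q] [AddCommGroup X] [Module R X] (f : K →ₗ[R] Q) (g : Q →ₗ[R] X)
    (hex : Function.Exact f g) (hf : Function.Injective f) (hg : Function.Surjective g)
    [Module.Projective R Q] (Y : ModuleCat.{u} R) (j : ℕ) (hj : 1 ≤ j)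
    (h : Subsingleton (Ext (ModuleCat.of R X) Y (1 + j))) :
    Subsingleton (Ext (ModuleCat.of R K) Y j) := by
  have : Projective (stepComplex f g hex).X₂ :=
    (inferInstance : Projective (ModuleCat.of R Q))
  exact shift_left (stepComplex_shortExact f g hex hf hg) Y j hj h

/-- Syzygy criterion: let `0 → N (i+1) → P i → N i → 0` (`i < n`) be exact with the `P i`
finitely generated projective, and suppose `N n` is a direct summand of a finite power of
`N a × R` for some `a < n`.  If `Ext^j(N 0, N 0)` and `Ext^j(N 0, R)` vanish for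
`1 ≤ j ≤ n`, then `N 0` is projective. -/
theorem syzygy_criterion (n : ℕ) (N P : ℕ → Type u)
    [∀ i, AddCommGroup (N i)] [∀ i, Module R (N i)]
    [∀ i, AddCommGroup (P i)] [∀ i, Module R (P i)]
    (ι : ∀ i, N (i + 1) →ₗ[R] P i) (π : ∀ i, P i →ₗ[R] N i)
    (hι : ∀ i < n, Function.Injective (ι i))
    (hπ : ∀ i < n, Function.Surjective (π i))
    (hex : ∀ i < n, Function.Exact (ι i) (π i))
    (hP : ∀ i < n, Module.Projective R (P i) ∧ Module.Finite R (P i))
    (hMM : ∀ j, 1 ≤ j → j ≤ n →
      Subsingleton (Ext (ModuleCat.of R (N 0)) (ModuleCat.of R (N 0)) j))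
    (hMR : ∀ j, 1 ≤ j → j ≤ n →
      Subsingleton (Ext (ModuleCat.of R (N 0)) (ModuleCat.of R R) j))
    (a k : ℕ) (ha : a < n)
    (s : N n →ₗ[R] (Fin k → N a × R)) (r : (Fin k → N a × R) →ₗ[R] N n)
    (hrs : ∀ x, r (s x) = x) :
    Module.Projective R (N 0) := by
  set M : ModuleCat.{u} R := ModuleCat.of R (N 0) with hM
  -- vanishing on the middle terms
  have hQ : ∀ i < n, ∀ j, 1 ≤ j → j ≤ n → Subsingleton (Ext M (ModuleCat.of R (P i)) j) := by
    intro i hi j h1 h2
    have := (hP i hi).1
    have := (hP i hi).2
    exact ext_fg_projective M (P i) j (hMR j h1 h2)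
  -- (*) covariant shifting
  have hstar : ∀ c, c ≤ n → ∀ j, 1 ≤ j → j + c ≤ n →
      Subsingleton (Ext M (ModuleCat.of R (N c)) (j + c)) := by
    intro c
    induction c with
    | zero => intro _ j h1 h2; exact hMM j h1 (by omega)
    | succ c ih =>
      intro hc j h1 h2
      have hc' : c < n := by omega
      exact mod_shift_right M (ι c) (π c) (hex c hc') (hι c hc') (hπ c hc') (j + c)
        (ih (by omega) j h1 (by omega)) (hQ c hc' (j + c + 1) (by omega) (by omega))
  -- contravariant shifting
  have hleft : ∀ i, i ≤ n → ∀ (Y : ModuleCat.{u} R) (j : ℕ), 1 ≤ j →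
      Subsingleton (Ext M Y (j + i)) → Subsingleton (Ext (ModuleCat.of R (N i)) Y j) := by
    intro i
    induction i with
    | zero => intro _ Y j _ h; exact h
    | succ i ih =>
      intro hi Y j h1 h
      have hi' : i < n := by omega
      have := (hP i hi').1
      have h' : Subsingleton (Ext M Y (j + 1 + i)) := by
        have e : j + 1 + i = j + (i + 1) := by omega
        rw [e]; exact h
      have h2 := ih (by omega) Y (j + 1) (by omega) h'
      have h3 : Subsingleton (Ext (ModuleCat.of R (N i)) Y (1 + j)) := by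
        have e : 1 + j = j + 1 := by omega
        rw [e]; exact h2
      exact mod_shift_left (ι i) (π i) (hex i hi') (hι i hi') (hπ i hi') Y j h1 h3
  -- the last syzygy
  obtain ⟨m, rfl⟩ : ∃ m, n = m + 1 := ⟨n - 1, by omega⟩
  have hNa : Subsingleton (Ext M (ModuleCat.of R (N a)) (m + 1)) := by
    have := hstar a (by omega) (m + 1 - a) (by omega) (by omega)
    have e : m + 1 - a + a = m + 1 := by omega
    rw [e] at this; exact this
  have hpow : Subsingleton (Ext M (ModuleCat.of R (Fin k → N a × R)) (m + 1)) :=
    ext_pi M (N a × R) k (m + 1) (ext_prod M (N a) R (m + 1) hNa (hMR (m + 1) (by omega) le_rfl))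
  have hlast : Subsingleton (Ext M (ModuleCat.of R (N (m + 1))) (m + 1)) := by
    refine ext_retract M (ModuleCat.ofHom s) (ModuleCat.ofHom r) ?_ (m + 1) hpow
    apply ModuleCat.hom_ext
    apply LinearMap.ext
    intro x
    simpa using hrs x
  -- descending induction
  have hdesc : ∀ t, t ≤ m → Module.Projective R (N (m - t)) ∧ Module.Finite R (N (m - t)) := by
    intro t
    induction t with
    | zero =>
      intro _
      have h1 : Subsingleton (Ext (ModuleCat.of R (N m)) (ModuleCat.of R (N (m + 1))) 1) :=
        hleft m (by omega) _ 1 le_rfl (by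
          have e : 1 + m = m + 1 := by omega
          rw [e]; exact hlast)
      have := (hP m (by omega)).1
      have := (hP m (by omega)).2
      exact retract_of_ext_one (ι m) (π m) (hex m (by omega)) (hι m (by omega)) (hπ m (by omega)) h1
    | succ t ih =>
      intro ht
      obtain ⟨hp, hfin⟩ := ih (by omega)
      obtain ⟨c, hc⟩ : ∃ c, m - t = c + 1 := ⟨m - t - 1, by omega⟩
      have hc2 : m - (t + 1) = c := by omega
      rw [hc] at hp hfin
      rw [hc2]
      have h0 : Subsingleton (Ext M (ModuleCat.of R (N (c + 1))) (1 + c)) := by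
        have e : 1 + c = c + 1 := by omega
        rw [e]
        exact ext_fg_projective M (N (c + 1)) (c + 1) (hMR (c + 1) (by omega) (by omega))
      have h1 : Subsingleton (Ext (ModuleCat.of R (N c)) (ModuleCat.of R (N (c + 1))) 1) :=
        hleft c (by omega) _ 1 le_rfl h0
      have := (hP c (by omega)).1
      have := (hP c (by omega)).2
      exact retract_of_ext_one (ι c) (π c) (hex c (by omega)) (hι c (by omega)) (hπ c (by omega)) h1
  have hfin := (hdesc m le_rfl).1
  rwa [Nat.sub_self] at hfin

end Vale.Agent.H52.AR
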